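import Vale.Agent.P365.Main

namespace Vale.Agent.Results.P365.NoAC

open MeasureTheory ProbabilityTheory Vale.Agent.P365

theorem result (ρ : Measure (ℤ × ℤ → ℝ)) [IsProbabilityMeasure ρ] (γ : NNReal) (hγ : γ ≠ 0) :
    ∀ᵐ p ∂(ρ.prod (Measure.infinitePi fun _ : ℤ × ℤ => cauchyMeasure 0 γ)),
      ∀ (ψ : ℤ × ℤ → ℂ), (Summable fun x => ‖ψ x‖ ^ 2) → ∀ μ : Measure ℝ,
        IsSpectralMeasure (fun x => p.1 x + p.2 x) ψ μ → μ ⟂ₘ volume :=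
  no_ac ρ hγ

end Vale.Agent.Results.P365.NoAC
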